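import Vale.Agent.P107.MX1.PI
import Vale.Agent.P107.IntReg
import Vale.Agent.P107.Flow

/-! P107 MX1: the field of the free streaming density. -/

namespace Vale.Agent.P107.MX1

open MeasureTheory Set Filter Topology Metric
open scoped ContDiff RealInnerProductSpace ENNReal

variable {f0 : Z → ℝ} {N P0 : ℝ}

noncomputable def mx1L (w : Z) : (ℝ × V3) →L[ℝ] Z :=
  (ContinuousLinearMap.inl ℝ V3 V3).comp
    (ContinuousLinearMap.snd ℝ ℝ V3 - (ContinuousLinearMap.fst ℝ ℝ V3).smulRight (u w.2))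

noncomputable def mx1a (w : Z) : Z := (-w.1 + ‖w.1‖ • u w.2, w.2)

noncomputable def mx1B (w : Z) : ℝ →L[ℝ] V3 × V3 :=
  (ContinuousLinearMap.id ℝ ℝ).smulRight (ker w.1 w.2 0)

theorem mx1_La (w : Z) (p : ℝ × V3) :
    mx1L w p + mx1a w = (p.2 - w.1 - (p.1 - ‖w.1‖) • u w.2, w.2) := by
  simp only [mx1L, mx1a, ContinuousLinearMap.comp_apply, sub_apply, ContinuousLinearMap.coe_snd',
    ContinuousLinearMap.smulRight_apply, ContinuousLinearMap.coe_fst', ContinuousLinearMap.inl_apply,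
    Prod.mk_add_mk, zero_add, Prod.mk.injEq, and_true]
  module

theorem mx1_nL (w : Z) : ‖mx1L w‖ ≤ 2 := by
  refine ContinuousLinearMap.opNorm_le_bound _ (by norm_num) fun p => ?_
  have e : mx1L w p = (p.2 - p.1 • u w.2, 0) := rfl
  rw [e, Prod.norm_mk, norm_zero, max_eq_left (norm_nonneg _)]
  refine (norm_sub_le _ _).trans ?_
  rw [norm_smul]
  have h1 := mul_le_of_le_one_right (norm_nonneg p.1) (norm_u_lt w.2).le
  linarith [norm_fst_le p, norm_snd_le p]

theorem mx1_vol {v : V3} (hv : q v ≤ P0) (y : V3) (r : ℝ) :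
    volume {D : V3 | ‖y - D + ‖D‖ • u v‖ ≤ r} ≤
      volume (closedBall (0 : V3) (2 * P0 ^ 2 * (2 * r))) := by
  rcases eq_empty_or_nonempty {D : V3 | ‖y - D + ‖D‖ • u v‖ ≤ r} with h | ⟨D0, h0⟩
  · simp [h]
  rw [← Measure.addHaar_closedBall_center volume D0]
  refine measure_mono fun D hD => ?_
  have hP : 0 < P0 := (q_pos v).trans_le hv
  have h1 : ‖D - D0‖ ≤ 2 * r + ‖D - D0‖ * (1 - (2 * P0 ^ 2)⁻¹) := by
    have e : D - D0 = (y - D0 + ‖D0‖ • u v) - (y - D + ‖D‖ • u v) + (‖D‖ - ‖D0‖) • u v := by module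
    have h2 : ‖(‖D‖ - ‖D0‖) • u v‖ ≤ ‖D - D0‖ * (1 - (2 * P0 ^ 2)⁻¹) := by
      rw [norm_smul]
      exact mul_le_mul (abs_norm_sub_norm_le _ _) (norm_u_le_of_q_le hv) (norm_nonneg _)
        (norm_nonneg _)
    have h3 := norm_add_le_of_le (norm_sub_le_of_le (show _ ≤ r from h0) (show _ ≤ r from hD)) h2
    rw [← e] at h3
    linarith
  rw [mem_closedBall, dist_eq_norm, ← inv_mul_le_iff₀ (by positivity)]
  linarith

theorem mx1_inner {v : V3} (hv : q v ≤ P0) (y : V3) (r : ℝ) :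
    ∫⁻ D in {D : V3 | ‖y - D + ‖D‖ • u v‖ ≤ r}, ENNReal.ofReal (1 / ‖D‖ ^ 2) ≤
      ENNReal.ofReal (13 * 1) + volume (closedBall (0 : V3) (2 * P0 ^ 2 * (2 * r))) := by
  have hm : MeasurableSet {D : V3 | ‖D‖ ≤ 1} := measurableSet_le measurable_norm measurable_const
  rw [← lintegral_inter_add_sdiff _ _ hm]
  refine add_le_add ((lintegral_mono_set inter_subset_right).trans (lintegral_inv_sq 1)) ?_
  refine le_trans ?_ ((measure_mono (sdiff_subset (t := {D : V3 | ‖D‖ ≤ 1}))).trans (mx1_vol hv y r))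
  rw [← setLIntegral_one]
  refine setLIntegral_mono measurable_const fun D hD => ?_
  have h1 : 1 ≤ ‖D‖ := (not_le.mp hD.2).le
  rw [ENNReal.ofReal_le_one, div_le_one (by positivity)]
  exact one_le_pow₀ h1

theorem mx1_PH (P0 : ℝ) : PH (volume : Measure Z) mx1L mx1a {z | ‖z.1‖ ≤ P0 ∧ q z.2 ≤ P0}
    (fun w => q w.2 ^ 2 / ‖w.1‖ ^ 2) := by
  have hu := contDiff_u.continuous
  have hq := contDiff_q.continuous
  refine ⟨Continuous.aestronglyMeasurable ?_, Continuous.aestronglyMeasurable ?_,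
    Eventually.of_forall mx1_nL, ?_⟩
  · exact continuous_const.clm_comp (continuous_const.sub
      ((ContinuousLinearMap.smulRightL ℝ (ℝ × V3) V3 (ContinuousLinearMap.fst ℝ ℝ V3)).continuous.comp
        (hu.comp continuous_snd)))
  · unfold mx1a
    fun_prop
  obtain ⟨c, hc⟩ : ∃ c : ℝ≥0∞, c = ENNReal.ofReal (P0 ^ 2) * (ENNReal.ofReal (13 * 1) +
    volume (closedBall (0 : V3) (2 * P0 ^ 2 * (2 * (P0 + 2))))) := ⟨_, rfl⟩
  have hct : c * ENNReal.ofReal (5 * P0 ^ 3) ≠ ⊤ := by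
    rw [hc]
    exact ENNReal.mul_ne_top (ENNReal.mul_ne_top ENNReal.ofReal_ne_top (ENNReal.add_ne_top.mpr
      ⟨ENNReal.ofReal_ne_top, measure_closedBall_lt_top.ne⟩)) ENNReal.ofReal_ne_top
  refine ⟨(c * ENNReal.ofReal (5 * P0 ^ 3)).toReal, fun p => ?_⟩
  obtain ⟨A, hA⟩ : ∃ A : Set Z, A = {w | q w.2 ≤ P0 ∧
    ‖p.2 - p.1 • u w.2 - w.1 + ‖w.1‖ • u w.2‖ ≤ P0 + 2} := ⟨_, rfl⟩
  have hAm : MeasurableSet A := by
    rw [hA]
    refine IsClosed.measurableSet (IsClosed.and ?_ ?_) <;>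
      exact isClosed_le (by fun_prop) continuous_const
  have hbm : Measurable (A.indicator fun w : Z => P0 ^ 2 * (1 / ‖w.1‖ ^ 2)) :=
    Measurable.indicator (by fun_prop) hAm
  have hb0 : ∀ w, 0 ≤ (A.indicator fun w : Z => P0 ^ 2 * (1 / ‖w.1‖ ^ 2)) w :=
    fun w => indicator_nonneg (fun w _ => by positivity) w
  have key : ∫⁻ w, ENNReal.ofReal ((A.indicator fun w : Z => P0 ^ 2 * (1 / ‖w.1‖ ^ 2)) w) ≤
      c * ENNReal.ofReal (5 * P0 ^ 3) := by
    rw [Measure.volume_eq_prod, lintegral_prod_symm _ hbm.ennreal_ofReal.aemeasurable]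
    refine le_trans ?_ (mul_le_mul_right (volume_q_le P0) c)
    have hm : MeasurableSet {v : V3 | q v ≤ P0} := measurableSet_le hq.measurable measurable_const
    rw [← lintegral_indicator_const hm]
    refine lintegral_mono fun v => ?_
    by_cases hv : q v ≤ P0
    · rw [indicator_of_mem (show v ∈ {v : V3 | q v ≤ P0} from hv), hc]
      refine le_trans ?_ (mul_le_mul_right (mx1_inner hv (p.2 - p.1 • u v) (P0 + 2)) _)
      rw [← lintegral_const_mul' _ _ ENNReal.ofReal_ne_top, ← lintegral_indicator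
        (isClosed_le (by fun_prop) continuous_const).measurableSet]
      refine lintegral_mono fun D => ?_
      by_cases hD : (D, v) ∈ A
      · rw [indicator_of_mem hD, ENNReal.ofReal_mul (by positivity)]
        rw [hA] at hD
        rw [indicator_of_mem (show D ∈ {D : V3 | ‖p.2 - p.1 • u v - D + ‖D‖ • u v‖ ≤ P0 + 2}
          from hD.2)]
      · simp [indicator_of_notMem hD]
    · refine le_of_eq_of_le (lintegral_eq_zero_of_ae_eq_zero (Eventually.of_forall fun D => ?_))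
        zero_le
      have hD : (D, v) ∉ A := fun h => hv (by rw [hA] at h; exact h.1)
      simp [indicator_of_notMem hD]
  refine ⟨_, ⟨hbm.aestronglyMeasurable, ?_⟩, ?_, Eventually.of_forall fun w => ⟨hb0 w, ?_⟩⟩
  · rw [hasFiniteIntegral_iff_ofReal (Eventually.of_forall hb0)]
    exact key.trans_lt hct.lt_top
  · rw [integral_eq_lintegral_of_nonneg_ae (Eventually.of_forall hb0) hbm.aestronglyMeasurable]
    exact ENNReal.toReal_mono hct key
  · intro p' hp' hs
    have h1 : ‖mx1L w p - mx1L w p'‖ ≤ 2 := by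
      rw [← map_sub]
      have := (mx1L w).le_of_opNorm_le_of_le (mx1_nL w) (mem_ball_iff_norm'.mp hp').le
      linarith
    have h2 : ‖(mx1L w p + mx1a w).1‖ ≤ P0 + 2 := by
      rw [show mx1L w p + mx1a w = (mx1L w p' + mx1a w) + (mx1L w p - mx1L w p') by abel,
        Prod.fst_add]
      exact norm_add_le_of_le hs.1 ((norm_fst_le _).trans h1)
    have h3 : q w.2 ≤ P0 := by
      have := hs.2
      rwa [mx1_La] at this
    have hw : w ∈ A := by
      rw [hA]
      refine ⟨h3, le_of_eq_of_le (congrArg _ ?_) h2⟩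
      rw [mx1_La]
      module
    rw [indicator_of_mem hw, mul_one_div]
    exact div_le_div_of_nonneg_right (pow_le_pow_left₀ (q_pos _).le h3 2) (sq_nonneg _)

theorem mx1_PK : PK (volume : Measure Z) (fun w => q w.2 ^ 2 / ‖w.1‖ ^ 2) mx1B := by
  refine ⟨?_, 1, zero_le_one, Eventually.of_forall fun w => ?_⟩
  · exact (ContinuousLinearMap.smulRightL ℝ ℝ (V3 × V3)
      (ContinuousLinearMap.id ℝ ℝ)).continuous.comp_aestronglyMeasurable
        (measurable_ker.comp (measurable_id.prodMk measurable_const)).aestronglyMeasurable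
  · rw [mx1B, ContinuousLinearMap.norm_smulRight_apply, ContinuousLinearMap.norm_id]
    simpa using norm_ker_le w.1 w.2 0

theorem mx1_f0 (hI : Init f0 N P0) : SB f0 ∧ tsupport f0 ⊆ {z | ‖z.1‖ ≤ P0 ∧ q z.2 ≤ P0} := by
  have hq := contDiff_q.continuous
  have hs : tsupport f0 ⊆ {z | ‖z.1‖ ≤ P0 ∧ q z.2 ≤ P0} := by
    refine closure_minimal hI.supp (IsClosed.and ?_ ?_) <;>
      exact isClosed_le (by fun_prop) continuous_const
  refine ⟨⟨hI.smooth, fun n => ?_⟩, hs⟩
  have hc : HasCompactSupport f0 := (isCompact_closedBall (0 : Z) P0).of_isClosed_subset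
    (isClosed_tsupport _) fun z hz => mem_closedBall_zero_iff.mpr
      (norm_prod_le_iff.mpr ⟨(hs hz).1, (norm_le_q _).trans (hs hz).2⟩)
  exact (hI.smooth.continuous_iteratedFDeriv (by exact_mod_cast le_top)).bounded_above_of_compact_support
    (hc.iteratedFDeriv n)

theorem mx1_free {Φ Ψ : ℝ → Z → Z} (hF : IsFlow 0 Φ Ψ) (t : ℝ) (z : Z) :
    Ψ t z = (z.1 - t • u z.2, z.2) := by
  have hA : App 0 0 := ⟨fun _ => by simp, 0, fun _ _ => by simp⟩
  have h2 : ∀ s y, (Φ s y).2 = y.2 := fun s y => by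
    have := hF.mom_sub_le hA 0 s y
    rw [hF.zero] at this
    simpa [sub_eq_zero] using this
  have h1 : ∀ y, (Φ t y).1 = y.1 + t • u y.2 := fun y => by
    have hd : ∀ s, HasDerivAt (fun s => (Φ s y).1 - s • u y.2) 0 s := fun s => by
      have := (hF.pos_deriv s y).sub ((hasDerivAt_id s).smul_const (u y.2))
      rwa [h2, one_smul, sub_self] at this
    have := is_const_of_deriv_eq_zero (fun s => (hd s).differentiableAt) (fun s => (hd s).deriv) t 0
    rw [hF.zero, zero_smul, sub_zero] at this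
    exact eq_add_of_sub_eq this
  have e : Φ t (z.1 - t • u z.2, z.2) = z := Prod.ext (by rw [h1, sub_add_cancel]) (h2 _ _)
  rw [← hF.left t (z.1 - t • u z.2, z.2), e]

theorem mx1_split (hI : Init f0 N P0) {Φ Ψ : ℝ → Z → Z} (hF : IsFlow 0 Φ Ψ) (p : ℝ × V3) :
    farF f0 p = PI volume mx1L mx1a mx1B f0 p - intF (dens f0 Ψ) 0 p := by
  have hi := pi_int (mx1_PH P0) mx1_PK (mx1_f0 hI).1 (mx1_f0 hI).2 p
  have hm : MeasurableSet {w : Z | ‖w.1‖ ≤ p.1} :=
    measurableSet_le measurable_fst.norm measurable_const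
  have e : {w : Z | ‖w.1‖ ≤ p.1}ᶜ = {w : Z | p.1 < ‖w.1‖} := by ext w; simp
  rw [PI, ← integral_add_compl hm hi, e, eq_sub_iff_add_eq, add_comm]
  simp only [mx1_La, intF, farF, dens, mx1_free hF, mx1B, ContinuousLinearMap.smulRight_apply,
    ContinuousLinearMap.id_apply, Pi.zero_apply]

theorem mx1_full (hI : Init f0 N P0) : SB (PI volume mx1L mx1a mx1B f0) :=
  pi_sb (mx1_PH P0) mx1_PK (mx1_f0 hI).1 (mx1_f0 hI).2

theorem mx1_farF_reg (hI : Init f0 N P0) {T : ℝ} (hT : 0 ≤ T) : ∃ K0, Reg (farF f0) T K0 := by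
  have hA : App 0 0 := ⟨fun _ => by simp, 0, fun _ _ => by simp⟩
  obtain ⟨Φ, Ψ, hF⟩ := exists_flow hA
  obtain ⟨M, hM⟩ := intF_reg hI hA hF hT (M := 0)
    ⟨fun _ _ => by simp, fun _ _ _ _ => by simp, fun _ _ _ _ => by simp⟩
  rw [funext (mx1_split hI hF)]
  exact (((mx1_full hI).rw T).sub (reg_rw hM)).reg

theorem mx1_farF_sb (hI : Init f0 N P0) : SB fun x => farF f0 (0, x) := by
  have hA : App 0 0 := ⟨fun _ => by simp, 0, fun _ _ => by simp⟩
  obtain ⟨Φ, Ψ, hF⟩ := exists_flow hA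
  simp only [mx1_split hI hF, intF_zero, sub_zero]
  exact (mx1_full hI).comp (ContinuousLinearMap.inr ℝ ℝ V3)

end Vale.Agent.P107.MX1
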