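import Vale.Agent.P107.Bas2

/-! P107 MX1: the uniform measure on the sphere in spherical coordinates, and the surface
divergence identity behind the Darboux equation. -/

namespace Vale.Agent.P107.MX1

open MeasureTheory Set Filter Topology Metric Real
open scoped ContDiff RealInnerProductSpace ENNReal

/-- Standard basis. -/
noncomputable def eb (i : Fin 3) : V3 := EuclideanSpace.single i 1

noncomputable def sphR (φ : ℝ) : V3 := cos φ • eb 0 + sin φ • eb 1
noncomputable def sphS (φ : ℝ) : V3 := sin φ • eb 0 - cos φ • eb 1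
noncomputable def sphN (p : ℝ × ℝ) : V3 := sin p.1 • sphR p.2 + cos p.1 • eb 2
noncomputable def sphT (p : ℝ × ℝ) : V3 := cos p.1 • sphR p.2 - sin p.1 • eb 2

theorem sph_rot (β : V3 →L[ℝ] V3 →L[ℝ] V3) (r e : V3) {a b : ℝ} (h : a ^ 2 + b ^ 2 = 1) :
    β (a • r + b • e) (a • r + b • e) + β (b • r - a • e) (b • r - a • e) = β r r + β e e := by
  have : β (a • r + b • e) (a • r + b • e) + β (b • r - a • e) (b • r - a • e) =
      (a ^ 2 + b ^ 2) • (β r r + β e e) := by
    simp only [map_add, map_sub, map_smul, add_apply, sub_apply, smul_apply]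
    module
  rw [this, h, one_smul]

theorem sph_norm (p : ℝ × ℝ) : ‖sphN p‖ ≤ 1 := by
  have : ‖sphN p‖ ^ 2 = 1 := by
    rw [EuclideanSpace.real_norm_sq_eq, Fin.sum_univ_three]
    simp [sphN, sphR, eb]
    linear_combination sin p.1 ^ 2 * cos_sq_add_sin_sq p.2 + sin_sq_add_cos_sq p.1
  nlinarith [norm_nonneg (sphN p)]

theorem sph_cont : Continuous sphN ∧ Continuous sphT ∧ Continuous sphS ∧ Continuous sphR := by
  refine ⟨?_, ?_, ?_, ?_⟩
  · unfold sphN sphR; fun_prop
  · unfold sphT sphR; fun_prop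
  · unfold sphS; fun_prop
  · unfold sphR; fun_prop

noncomputable def sphM : Measure (ℝ × ℝ) :=
  (volume.restrict (Ioc 0 π)).prod (volume.restrict (Ioc 0 (2 * π)))

theorem sph_int {E : Type} [NormedAddCommGroup E] {f : ℝ × ℝ → E} (hf : Continuous f) :
    Integrable f sphM := by
  rw [sphM, Measure.prod_restrict]
  exact (hf.continuousOn.integrableOn_compact (isCompact_Icc.prod isCompact_Icc)).mono_set
    (prod_mono Ioc_subset_Icc_self Ioc_subset_Icc_self)

theorem sph_div {G : V3 → V3 →L[ℝ] V3} (hG : ContDiff ℝ 1 G) (t : ℝ) (x : V3) :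
    ∫ p, sin p.1 • (t • (fderiv ℝ G (x + t • sphN p) (eb 0) (eb 0) +
      fderiv ℝ G (x + t • sphN p) (eb 1) (eb 1) + fderiv ℝ G (x + t • sphN p) (eb 2) (eb 2)) -
      t • fderiv ℝ G (x + t • sphN p) (sphN p) (sphN p) -
      (2 : ℝ) • G (x + t • sphN p) (sphN p)) ∂sphM = 0 := by
  obtain ⟨c1, c2, c3, c4⟩ := sph_cont
  have g0 := hG.continuous
  have g1 := hG.continuous_fderiv one_ne_zero
  have gd := hG.differentiable one_ne_zero
  obtain ⟨A, hA⟩ : ∃ A : ℝ × ℝ → V3, A = fun p => sin p.1 •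
    (fderiv ℝ G (x + t • sphN p) (t • sphT p) (sphT p) + G (x + t • sphN p) (-sphN p)) +
      cos p.1 • G (x + t • sphN p) (sphT p) := ⟨_, rfl⟩
  obtain ⟨B, hB⟩ : ∃ B : ℝ × ℝ → V3, B = fun p =>
    -(fderiv ℝ G (x + t • sphN p) (t • sin p.1 • -sphS p.2) (sphS p.2) +
      G (x + t • sphN p) (sphR p.2)) := ⟨_, rfl⟩
  have cA : Continuous A := by rw [hA]; fun_prop
  have cB : Continuous B := by rw [hB]; fun_prop
  have dA : ∀ φ θ, HasDerivAt (fun θ => sin θ • G (x + t • sphN (θ, φ)) (sphT (θ, φ)))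
      (A (θ, φ)) θ := by
    intro φ θ
    have n1 : HasDerivAt (fun θ => sphN (θ, φ)) (sphT (θ, φ)) θ :=
      (((hasDerivAt_sin θ).smul_const (sphR φ)).add ((hasDerivAt_cos θ).smul_const (eb 2))).congr_deriv
        (by simp only [sphT]; module)
    have n2 : HasDerivAt (fun θ => sphT (θ, φ)) (-sphN (θ, φ)) θ :=
      (((hasDerivAt_cos θ).smul_const (sphR φ)).sub ((hasDerivAt_sin θ).smul_const (eb 2))).congr_deriv
        (by simp only [sphN]; module)
    rw [hA]
    exact (hasDerivAt_sin θ).smul ((((gd _).hasFDerivAt.comp_hasDerivAt θ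
      ((n1.const_smul t).const_add x))).clm_apply n2)
  have dB : ∀ θ φ, HasDerivAt (fun φ => -G (x + t • sphN (θ, φ)) (sphS φ)) (B (θ, φ)) φ := by
    intro θ φ
    have n0 : HasDerivAt sphR (-sphS φ) φ :=
      (((hasDerivAt_cos φ).smul_const (eb 0)).add ((hasDerivAt_sin φ).smul_const (eb 1))).congr_deriv
        (by simp only [sphS]; module)
    have n1 : HasDerivAt (fun φ => sphN (θ, φ)) (sin θ • -sphS φ) φ :=
      (n0.const_smul (sin θ)).add_const (cos θ • eb 2)
    have n2 : HasDerivAt sphS (sphR φ) φ :=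
      (((hasDerivAt_sin φ).smul_const (eb 0)).sub ((hasDerivAt_cos φ).smul_const (eb 1))).congr_deriv
        (by simp only [sphR]; module)
    rw [hB]
    exact ((((gd _).hasFDerivAt.comp_hasDerivAt φ
      ((n1.const_smul t).const_add x))).clm_apply n2).neg
  have iA : ∫ p, A p ∂sphM = 0 := by
    rw [sphM, integral_prod_symm _ (sph_int cA)]
    refine integral_eq_zero_of_ae (Eventually.of_forall fun φ => ?_)
    have := intervalIntegral.integral_eq_sub_of_hasDerivAt (a := 0) (b := π) (fun θ _ => dA φ θ)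
      ((cA.comp (by fun_prop : Continuous fun θ : ℝ => (θ, φ))).intervalIntegrable _ _)
    rw [intervalIntegral.integral_of_le pi_pos.le] at this
    simpa using this
  have iB : ∫ p, B p ∂sphM = 0 := by
    rw [sphM, integral_prod _ (sph_int cB)]
    refine integral_eq_zero_of_ae (Eventually.of_forall fun θ => ?_)
    have := intervalIntegral.integral_eq_sub_of_hasDerivAt (a := 0) (b := 2 * π) (fun φ _ => dB θ φ)
      ((cB.comp (by fun_prop : Continuous fun φ : ℝ => (θ, φ))).intervalIntegrable _ _)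
    rw [intervalIntegral.integral_of_le two_pi_pos.le] at this
    simpa [sphN, sphS, sphR] using this
  rw [← add_zero (0 : V3)]
  nth_rewrite 1 [← iA, ← iB]
  rw [← integral_add (sph_int cA) (sph_int cB)]
  refine integral_congr_ae (Eventually.of_forall fun p => ?_)
  have r1 := sph_rot (fderiv ℝ G (x + t • sphN p)) (sphR p.2) (eb 2) (sin_sq_add_cos_sq p.1)
  have r2 := sph_rot (fderiv ℝ G (x + t • sphN p)) (eb 0) (eb 1) (cos_sq_add_sin_sq p.2)
  have r3 : sphR p.2 = sin p.1 • sphN p + cos p.1 • sphT p := by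
    have : sin p.1 • sphN p + cos p.1 • sphT p = (sin p.1 ^ 2 + cos p.1 ^ 2) • sphR p.2 := by
      simp only [sphN, sphT]; module
    rw [this, sin_sq_add_cos_sq, one_smul]
  have r4 := congrArg (G (x + t • sphN p)) r3
  rw [← sphN, ← sphT] at r1
  rw [← sphR, ← sphS] at r2
  simp only [hA, hB, map_smul, map_neg, map_add, smul_apply, neg_apply] at r4 ⊢
  rw [r4, ← r2]
  linear_combination (norm := module) (-(sin p.1 * t)) • r1

theorem exists_sph : ∃ σ : Measure V3, IsProbabilityMeasure σ ∧ (∀ᵐ w ∂σ, ‖w‖ ≤ 1) ∧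
    ∀ G : V3 → V3 →L[ℝ] V3, ContDiff ℝ 1 G → ∀ (t : ℝ) (x : V3),
      ∫ w, (t • (fderiv ℝ G (x + t • w) (eb 0) (eb 0) + fderiv ℝ G (x + t • w) (eb 1) (eb 1) +
        fderiv ℝ G (x + t • w) (eb 2) (eb 2)) - t • fderiv ℝ G (x + t • w) w w -
          (2 : ℝ) • G (x + t • w) w) ∂σ = 0 := by
  have c1 := sph_cont.1
  have hm : Measurable fun p : ℝ × ℝ => ENNReal.ofReal ((4 * π)⁻¹ * sin p.1) := by fun_prop
  have h0 : ∀ᵐ p ∂sphM, 0 ≤ (4 * π)⁻¹ * sin p.1 := by
    rw [sphM, Measure.prod_restrict]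
    filter_upwards [ae_restrict_mem (measurableSet_Ioc.prod measurableSet_Ioc)] with p hp
    exact mul_nonneg (by positivity) (sin_nonneg_of_nonneg_of_le_pi hp.1.1.le hp.1.2)
  refine ⟨(sphM.withDensity fun p => ENNReal.ofReal ((4 * π)⁻¹ * sin p.1)).map sphN, ⟨?_⟩, ?_,
    fun G hG t x => ?_⟩
  · rw [Measure.map_apply c1.measurable MeasurableSet.univ, preimage_univ,
      withDensity_apply _ MeasurableSet.univ, Measure.restrict_univ,
      ← ofReal_integral_eq_lintegral_ofReal (sph_int (by fun_prop)) h0, integral_const_mul, sphM,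
      integral_fun_fst, ← intervalIntegral.integral_of_le pi_pos.le, integral_sin]
    have : (4 * π)⁻¹ * (2 * π * 2) = 1 := by field_simp; norm_num
    simp [two_pi_pos.le, one_add_one_eq_two] at this ⊢
    exact this
  · exact (ae_map_iff c1.aemeasurable (measurableSet_le measurable_norm measurable_const)).mpr
      (Eventually.of_forall sph_norm)
  · have g0 := hG.continuous
    have g1 := hG.continuous_fderiv one_ne_zero
    rw [integral_map c1.aemeasurable (Continuous.aestronglyMeasurable (by fun_prop)),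
      integral_withDensity_eq_integral_toReal_smul hm (Eventually.of_forall fun _ =>
        ENNReal.ofReal_lt_top)]
    have := congrArg ((4 * π)⁻¹ • ·) (sph_div hG t x)
    simp only [smul_zero, ← integral_smul] at this
    refine Eq.trans (integral_congr_ae (h0.mono fun p hp => ?_)) this
    simp only [ENNReal.toReal_ofReal hp, mul_smul]

end Vale.Agent.P107.MX1
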