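import Vale.Agent.P107.MX1.PI
import Vale.Agent.P107.MX1.Sph

/-! P107 MX1: spherical means and the wave equation. -/

namespace Vale.Agent.P107.MX1

open MeasureTheory Set Filter Topology Metric
open scoped ContDiff RealInnerProductSpace ENNReal

variable {W W' : Type} [NormedAddCommGroup W] [NormedSpace ℝ W] [NormedAddCommGroup W']
  [NormedSpace ℝ W'] {σ : Measure V3} [IsProbabilityMeasure σ]

noncomputable def kirL (w : V3) : (ℝ × V3) →L[ℝ] V3 :=
  ContinuousLinearMap.snd ℝ ℝ V3 + (ContinuousLinearMap.fst ℝ ℝ V3).smulRight w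

theorem kirL_apply (w : V3) (p : ℝ × V3) : kirL w p = p.2 + p.1 • w := rfl

theorem kir_PH (hσ : ∀ᵐ w ∂σ, ‖w‖ ≤ 1) : PH σ kirL (fun _ => 0) univ fun _ => 1 := by
  refine ⟨Continuous.aestronglyMeasurable (continuous_const.add (ContinuousLinearMap.smulRightL ℝ
    (ℝ × V3) V3 (ContinuousLinearMap.fst ℝ ℝ V3)).continuous), aestronglyMeasurable_const,
    hσ.mono fun w hw => ?_, 1, fun _ => ⟨fun _ => 1, integrable_const _, by simp,
      Eventually.of_forall fun _ => ⟨zero_le_one, fun _ _ _ => le_rfl⟩⟩⟩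
  refine ContinuousLinearMap.opNorm_le_bound _ (by norm_num) fun p => ?_
  rw [kirL_apply]
  refine (norm_add_le _ _).trans ?_
  rw [norm_smul]
  have h1 := mul_le_of_le_one_right (norm_nonneg p.1) hw
  linarith [norm_fst_le p, norm_snd_le p]

theorem kir_gen (hσ : ∀ᵐ w ∂σ, ‖w‖ ≤ 1) {B : V3 → W' →L[ℝ] W} (hB : PK σ (fun _ => 1) B)
    {G : V3 → W'} (hG : SB G) :
    SB (fun p : ℝ × V3 => ∫ w, B w (G (p.2 + p.1 • w)) ∂σ) ∧ ∀ (t : ℝ) (x : V3),
      Integrable (fun w => B w (G (x + t • w))) σ ∧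
      HasDerivAt (fun s : ℝ => ∫ w, B w (G (x + s • w)) ∂σ)
        (∫ w, B w (fderiv ℝ G (x + t • w) w) ∂σ) t ∧
      Integrable (fun w => B w (fderiv ℝ G (x + t • w) w)) σ ∧
      ∃ D : V3 →L[ℝ] W, HasFDerivAt (fun y => ∫ w, B w (G (y + t • w)) ∂σ) D x ∧
        ∀ k, D k = ∫ w, B w (fderiv ℝ G (x + t • w) k) ∂σ := by
  have h := kir_PH hσ
  have e : PI σ kirL (fun _ => 0) B G = fun p : ℝ × V3 => ∫ w, B w (G (p.2 + p.1 • w)) ∂σ := by
    funext p; simp only [PI, kirL_apply, add_zero]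
  refine ⟨e ▸ pi_sb h hB hG (subset_univ _), fun t x => ?_⟩
  have hd := pi_deriv h hB hG (subset_univ _) (t, x)
  have hk : ∀ k, PI σ kirL (fun _ => 0) (dK kirL B) (fderiv ℝ G) (t, x) k =
      ∫ w, B w (fderiv ℝ G (x + t • w) (k.2 + k.1 • w)) ∂σ := fun k => by
    rw [PI, ContinuousLinearMap.integral_apply (pi_int h (hB.dK h) hG.fderiv (subset_univ _) _)]
    simp only [dK_apply, kirL_apply, add_zero, ContinuousLinearMap.comp_apply]
  rw [e] at hd
  refine ⟨by simpa only [kirL_apply, add_zero] using pi_int h hB hG (subset_univ _) (t, x), ?_, ?_,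
    _, hd.comp x (hasFDerivAt_prodMk_right t x), fun k => ?_⟩
  · have := hd.comp_hasDerivAt t ((hasDerivAt_id t).prodMk (hasDerivAt_const t x))
    rw [hk] at this
    simpa [Function.comp_def] using this
  · simpa [dK_apply, kirL_apply] using
      (pi_int h (hB.dK h) hG.fderiv (subset_univ _) (t, x)).apply_continuousLinearMap (1, 0)
  · rw [ContinuousLinearMap.comp_apply, hk]
    simp

omit [IsProbabilityMeasure σ] in
theorem kir_PK0 : PK σ (fun _ => 1) fun _ => ContinuousLinearMap.id ℝ W :=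
  ⟨aestronglyMeasurable_const, 1, zero_le_one, Eventually.of_forall fun _ => by
    simpa using ContinuousLinearMap.norm_id_le⟩

omit [IsProbabilityMeasure σ] in
set_option maxSynthPendingDepth 3 in
theorem kir_PK1 (hσ : ∀ᵐ w ∂σ, ‖w‖ ≤ 1) :
    PK σ (fun _ => 1) fun w => ContinuousLinearMap.apply ℝ W w :=
  ⟨Continuous.aestronglyMeasurable (f := fun w : V3 => (ContinuousLinearMap.apply ℝ W w :
      (V3 →L[ℝ] W) →L[ℝ] W)) (ContinuousLinearMap.apply ℝ W).continuous, 1, zero_le_one,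
    hσ.mono fun w hw => ContinuousLinearMap.opNorm_le_bound _ (by norm_num) fun D => by
      simpa using D.le_of_opNorm_le_of_le le_rfl hw⟩

noncomputable def kM0 (σ : Measure V3) (g : V3 → W) (p : ℝ × V3) : W := ∫ w, g (p.2 + p.1 • w) ∂σ

noncomputable def kM1 (σ : Measure V3) (g : V3 → W) (p : ℝ × V3) : W :=
  ∫ w, fderiv ℝ g (p.2 + p.1 • w) w ∂σ

noncomputable def kw (σ : Measure V3) (g : V3 → W) (p : ℝ × V3) : W := p.1 • kM0 σ g p

noncomputable def kv (σ : Measure V3) (g : V3 → W) (p : ℝ × V3) : W := kM0 σ g p + p.1 • kM1 σ g p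

section
variable (hσ : ∀ᵐ w ∂σ, ‖w‖ ≤ 1) {g : V3 → W} (hg : SB g)
include hσ hg

theorem kM0_sb : SB (kM0 σ g) := (kir_gen hσ kir_PK0 hg).1

theorem kM1_sb : SB (kM1 σ g) := (kir_gen hσ (kir_PK1 hσ) hg.fderiv).1

theorem kM0_int (p : ℝ × V3) : Integrable (fun w => g (p.2 + p.1 • w)) σ :=
  ((kir_gen hσ kir_PK0 hg).2 p.1 p.2).1

theorem kM1_int (p : ℝ × V3) : Integrable (fun w => fderiv ℝ g (p.2 + p.1 • w) w) σ :=
  ((kir_gen hσ (kir_PK1 hσ) hg.fderiv).2 p.1 p.2).1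

theorem kw_cd : ContDiff ℝ ∞ (kw σ g) := contDiff_fst.smul (kM0_sb hσ hg).1

theorem kv_cd : ContDiff ℝ ∞ (kv σ g) := (kM0_sb hσ hg).1.add (contDiff_fst.smul (kM1_sb hσ hg).1)

theorem kw_rw {T : ℝ} (hT : 0 ≤ T) : RW (kw σ g) T := ((kM0_sb hσ hg).rw T).tmul hT

theorem kv_rw {T : ℝ} (hT : 0 ≤ T) : RW (kv σ g) T :=
  ((kM0_sb hσ hg).rw T).add (((kM1_sb hσ hg).rw T).tmul hT)

theorem kM0_x (t : ℝ) (x : V3) :
    HasFDerivAt (fun y => kM0 σ g (t, y)) (kM0 σ (fderiv ℝ g) (t, x)) x := by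
  obtain ⟨D, h1, h2⟩ := ((kir_gen hσ kir_PK0 hg).2 t x).2.2.2
  refine HasFDerivAt.congr_fderiv h1 (ContinuousLinearMap.ext fun k => ?_)
  rw [h2, kM0, ContinuousLinearMap.integral_apply (kM0_int hσ hg.fderiv _)]
  rfl

theorem kM1_x (t : ℝ) (x : V3) :
    HasFDerivAt (fun y => kM1 σ g (t, y)) (kM1 σ (fderiv ℝ g) (t, x)) x := by
  obtain ⟨D, h1, h2⟩ := ((kir_gen hσ (kir_PK1 hσ) hg.fderiv).2 t x).2.2.2
  refine HasFDerivAt.congr_fderiv h1 (ContinuousLinearMap.ext fun k => ?_)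
  rw [h2, kM1, ContinuousLinearMap.integral_apply (kM1_int hσ hg.fderiv _)]
  exact integral_congr_ae (Eventually.of_forall fun w =>
    ((contDiff_infty.mp hg.1 2).contDiffAt.isSymmSndFDerivAt (by simp)).eq k w)

theorem kw_x (t : ℝ) (x : V3) :
    HasFDerivAt (fun y => kw σ g (t, y)) (kw σ (fderiv ℝ g) (t, x)) x :=
  (kM0_x hσ hg t x).const_smul t

theorem kv_x (t : ℝ) (x : V3) :
    HasFDerivAt (fun y => kv σ g (t, y)) (kv σ (fderiv ℝ g) (t, x)) x :=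
  (kM0_x hσ hg t x).add ((kM1_x hσ hg t x).const_smul t)

theorem kw_t (t : ℝ) (x : V3) : HasDerivAt (fun s => kw σ g (s, x)) (kv σ g (t, x)) t :=
  ((hasDerivAt_id t).smul ((kir_gen hσ kir_PK0 hg).2 t x).2.1).congr_deriv (by
    rw [one_smul, add_comm]; rfl)

variable [CompleteSpace W] [CompleteSpace W']

theorem kM0_clm (T : W →L[ℝ] W') (p : ℝ × V3) : kM0 σ (fun x => T (g x)) p = T (kM0 σ g p) :=
  T.integral_comp_comm (kM0_int hσ hg p)

theorem kw_clm (T : W →L[ℝ] W') (p : ℝ × V3) : kw σ (fun x => T (g x)) p = T (kw σ g p) := by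
  rw [kw, kw, kM0_clm hσ hg, map_smul]

theorem kv_clm (T : W →L[ℝ] W') (p : ℝ × V3) : kv σ (fun x => T (g x)) p = T (kv σ g p) := by
  rw [kv, kv, kM0_clm hσ hg, map_add, map_smul, kM1, kM1, ← T.integral_comp_comm (kM1_int hσ hg p)]
  refine congrArg (fun y => T (kM0 σ g p) + p.1 • y) (integral_congr_ae (Eventually.of_forall fun w => ?_))
  exact congrArg (fun D : V3 →L[ℝ] W' => D w) (T.hasFDerivAt.comp _ (hg.diff _).hasFDerivAt).fderiv

end

omit [IsProbabilityMeasure σ] in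
theorem kw_zero (g : V3 → W) (x : V3) : kw σ g (0, x) = 0 := zero_smul _ _

theorem kv_zero [CompleteSpace W] (g : V3 → W) (x : V3) : kv σ g (0, x) = g x := by
  simp [kv, kM0]

/-- The trace of a bilinear map. -/
noncomputable def kTr : (V3 →L[ℝ] V3 →L[ℝ] V3) →L[ℝ] V3 :=
  (ContinuousLinearMap.apply ℝ V3 (eb 0)).comp (ContinuousLinearMap.apply ℝ (V3 →L[ℝ] V3) (eb 0)) +
  (ContinuousLinearMap.apply ℝ V3 (eb 1)).comp (ContinuousLinearMap.apply ℝ (V3 →L[ℝ] V3) (eb 1)) +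
  (ContinuousLinearMap.apply ℝ V3 (eb 2)).comp (ContinuousLinearMap.apply ℝ (V3 →L[ℝ] V3) (eb 2))

theorem kTr_apply (S : V3 →L[ℝ] V3 →L[ℝ] V3) :
    kTr S = S (eb 0) (eb 0) + S (eb 1) (eb 1) + S (eb 2) (eb 2) := rfl

theorem kv_t (hσ : ∀ᵐ w ∂σ, ‖w‖ ≤ 1) {g : V3 → V3} (hg : SB g) (t : ℝ) (x : V3)
    (hD : ∫ w, (t • kTr (fderiv ℝ (fderiv ℝ g) (x + t • w)) -
      t • fderiv ℝ (fderiv ℝ g) (x + t • w) w w - (2 : ℝ) • fderiv ℝ g (x + t • w) w) ∂σ = 0) :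
    HasDerivAt (fun s => kv σ g (s, x)) (kw σ (fun y => kTr (fderiv ℝ (fderiv ℝ g) y)) (t, x)) t := by
  have i0 : Integrable (fun w => t • kTr (fderiv ℝ (fderiv ℝ g) (x + t • w))) σ :=
    ((kir_gen hσ kir_PK0 (hg.fderiv.fderiv.clm kTr)).2 t x).1.smul t
  have i1 : Integrable (fun w => (2 : ℝ) • fderiv ℝ g (x + t • w) w) σ :=
    ((kir_gen hσ (kir_PK1 hσ) hg.fderiv).2 t x).1.smul (2 : ℝ)
  have i2 : Integrable (fun w => t • fderiv ℝ (fderiv ℝ g) (x + t • w) w w) σ :=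
    ((kir_gen hσ (kir_PK1 hσ) hg.fderiv).2 t x).2.2.1.smul t
  have i3 : Integrable (fun w => t • kTr (fderiv ℝ (fderiv ℝ g) (x + t • w)) -
    t • fderiv ℝ (fderiv ℝ g) (x + t • w) w w) σ := i0.sub i2
  rw [integral_sub i3 i1, integral_sub i0 i2, integral_smul, integral_smul, integral_smul] at hD
  refine (((kir_gen hσ kir_PK0 hg).2 t x).2.1.add ((hasDerivAt_id t).smul
    ((kir_gen hσ (kir_PK1 hσ) hg.fderiv).2 t x).2.1)).congr_deriv ?_
  simp only [kw, kM0, ContinuousLinearMap.id_apply, ContinuousLinearMap.apply_apply, id]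
  linear_combination (norm := module) -hD

end Vale.Agent.P107.MX1
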