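import Vale.Agent.P107.MX1.SB

/-! P107 MX1: parametric integrals of a smooth function along a family of affine maps. -/

namespace Vale.Agent.P107.MX1

open MeasureTheory Set Filter Topology Metric
open scoped ContDiff RealInnerProductSpace ENNReal

variable {Ω X Y : Type} [MeasurableSpace Ω] [NormedAddCommGroup X] [NormedSpace ℝ X]
  [NormedAddCommGroup Y] [NormedSpace ℝ Y] {μ : Measure Ω} {L : Ω → X →L[ℝ] Y} {a : Ω → Y}
  {S : Set Y} {β : Ω → ℝ}

/-- Hypotheses on the family of affine maps and the weight. -/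
structure PH (μ : Measure Ω) (L : Ω → X →L[ℝ] Y) (a : Ω → Y) (S : Set Y) (β : Ω → ℝ) : Prop where
  mL : AEStronglyMeasurable L μ
  ma : AEStronglyMeasurable a μ
  nL : ∀ᵐ w ∂μ, ‖L w‖ ≤ 2
  dom : ∃ C : ℝ, ∀ x, ∃ b : Ω → ℝ, Integrable b μ ∧ ∫ w, b w ∂μ ≤ C ∧
    ∀ᵐ w ∂μ, 0 ≤ b w ∧ ∀ x' ∈ ball x 1, L w x' + a w ∈ S → β w ≤ b w

section
variable {W W' : Type} [NormedAddCommGroup W] [NormedSpace ℝ W] [NormedAddCommGroup W']
  [NormedSpace ℝ W']

/-- Hypotheses on the kernel. -/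
def PK (μ : Measure Ω) (β : Ω → ℝ) (B : Ω → W' →L[ℝ] W) : Prop :=
  AEStronglyMeasurable B μ ∧ ∃ c : ℝ, 0 ≤ c ∧ ∀ᵐ w ∂μ, ‖B w‖ ≤ c * β w

/-- The parametric integral. -/
noncomputable def PI (μ : Measure Ω) (L : Ω → X →L[ℝ] Y) (a : Ω → Y) (B : Ω → W' →L[ℝ] W)
    (G : Y → W') (x : X) : W := ∫ w, B w (G (L w x + a w)) ∂μ

/-- The kernel of the derivative. -/
noncomputable def dK (L : Ω → X →L[ℝ] Y) (B : Ω → W' →L[ℝ] W) (w : Ω) :
    (Y →L[ℝ] W') →L[ℝ] (X →L[ℝ] W) :=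
  (ContinuousLinearMap.compL ℝ X W' W (B w)).comp ((ContinuousLinearMap.compL ℝ X Y W').flip (L w))

omit [MeasurableSpace Ω] in
theorem dK_apply (B : Ω → W' →L[ℝ] W) (w : Ω) (D : Y →L[ℝ] W') :
    dK L B w D = (B w).comp (D.comp (L w)) := rfl

theorem PK.dK (h : PH μ L a S β) {B : Ω → W' →L[ℝ] W} (hB : PK μ β B) : PK μ β (dK L B) := by
  obtain ⟨hm, c, hc, hb⟩ := hB
  refine ⟨?_, c * 2, by positivity, ?_⟩
  · have hc : Continuous fun q : (W' →L[ℝ] W) × (X →L[ℝ] Y) =>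
        (ContinuousLinearMap.compL ℝ X W' W q.1).comp
          ((ContinuousLinearMap.compL ℝ X Y W').flip q.2) :=
      ((ContinuousLinearMap.compL ℝ X W' W).continuous.comp continuous_fst).clm_comp
        ((ContinuousLinearMap.compL ℝ X Y W').flip.continuous.comp continuous_snd)
    exact hc.comp_aestronglyMeasurable (hm.prodMk h.mL)
  · filter_upwards [hb, h.nL] with w h1 h2
    have h0 : 0 ≤ c * β w := (norm_nonneg _).trans h1
    refine ContinuousLinearMap.opNorm_le_bound _ (by linarith) fun D => ?_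
    rw [dK_apply]
    refine (ContinuousLinearMap.opNorm_comp_le _ _).trans ?_
    have h3 := (D.opNorm_comp_le (L w)).trans (mul_le_mul_of_nonneg_left h2 (norm_nonneg _))
    have := mul_le_mul h1 h3 (norm_nonneg _) h0
    linarith

theorem pi_meas (h : PH μ L a S β) {B : Ω → W' →L[ℝ] W} (hB : PK μ β B) {G : Y → W'}
    (hG : SB G) (x : X) : AEStronglyMeasurable (fun w => B w (G (L w x + a w))) μ := by
  have h1 : AEStronglyMeasurable (fun w => G (L w x + a w)) μ :=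
    hG.1.continuous.comp_aestronglyMeasurable ((h.mL.apply_continuousLinearMap x).add h.ma)
  exact (isBoundedBilinearMap_apply (𝕜 := ℝ)).continuous.comp_aestronglyMeasurable (hB.1.prodMk h1)

theorem pi_dom (h : PH μ L a S β) {B : Ω → W' →L[ℝ] W} (hB : PK μ β B) {G : Y → W'}
    (hG : SB G) (hS : tsupport G ⊆ S) : ∃ C : ℝ, ∀ x, ∃ b : Ω → ℝ, Integrable b μ ∧
      ∫ w, b w ∂μ ≤ C ∧ ∀ᵐ w ∂μ, ∀ x' ∈ ball x 1, ‖B w (G (L w x' + a w))‖ ≤ b w := by
  obtain ⟨C, hC⟩ := h.dom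
  obtain ⟨-, c, hc, hb⟩ := hB
  obtain ⟨g, hg0, hg⟩ := hG.bdd
  refine ⟨c * g * C, fun x => ?_⟩
  obtain ⟨b, b1, b2, b3⟩ := hC x
  refine ⟨fun w => c * g * b w, b1.const_mul _, ?_, ?_⟩
  · rw [integral_const_mul]
    exact mul_le_mul_of_nonneg_left b2 (by positivity)
  · filter_upwards [hb, b3] with w h1 h2 x' hx'
    have h0 := h2.1
    by_cases hs : L w x' + a w ∈ S
    · have h3 := h1.trans (mul_le_mul_of_nonneg_left (h2.2 x' hx' hs) hc)
      refine ((B w).le_of_opNorm_le_of_le h3 (hg _)).trans (le_of_eq ?_)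
      ring
    · rw [image_eq_zero_of_notMem_tsupport fun hh => hs (hS hh), map_zero, norm_zero]
      positivity

theorem pi_int (h : PH μ L a S β) {B : Ω → W' →L[ℝ] W} (hB : PK μ β B) {G : Y → W'}
    (hG : SB G) (hS : tsupport G ⊆ S) (x : X) :
    Integrable (fun w => B w (G (L w x + a w))) μ := by
  obtain ⟨C, hC⟩ := pi_dom h hB hG hS
  obtain ⟨b, b1, -, b3⟩ := hC x
  exact b1.mono' (pi_meas h hB hG x) (b3.mono fun w hw => hw x (mem_ball_self one_pos))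

theorem pi_bdd (h : PH μ L a S β) {B : Ω → W' →L[ℝ] W} (hB : PK μ β B) {G : Y → W'}
    (hG : SB G) (hS : tsupport G ⊆ S) : ∃ C : ℝ, ∀ x, ‖PI μ L a B G x‖ ≤ C := by
  obtain ⟨C, hC⟩ := pi_dom h hB hG hS
  refine ⟨C, fun x => ?_⟩
  obtain ⟨b, b1, b2, b3⟩ := hC x
  exact (norm_integral_le_of_norm_le b1 (b3.mono fun w hw => hw x (mem_ball_self one_pos))).trans b2

theorem pi_deriv (h : PH μ L a S β) {B : Ω → W' →L[ℝ] W} (hB : PK μ β B) {G : Y → W'}
    (hG : SB G) (hS : tsupport G ⊆ S) (x : X) :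
    HasFDerivAt (PI μ L a B G) (PI μ L a (dK L B) (fderiv ℝ G) x) x := by
  obtain ⟨C, hC⟩ := pi_dom h (hB.dK h) hG.fderiv ((tsupport_fderiv_subset ℝ).trans hS)
  obtain ⟨b, b1, -, b3⟩ := hC x
  refine hasFDerivAt_integral_of_dominated_of_fderiv_le (F' := fun x w =>
    dK L B w (fderiv ℝ G (L w x + a w))) (ball_mem_nhds x one_pos)
    (Eventually.of_forall fun x' => pi_meas h hB hG x') (pi_int h hB hG hS x)
    (pi_meas h (hB.dK h) hG.fderiv x) b3 b1 (Eventually.of_forall fun w x' _ => ?_)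
  exact (B w).hasFDerivAt.comp x' ((hG.diff _).hasFDerivAt.comp x' ((L w).hasFDerivAt.add_const _))

end

theorem pi_ind (h : PH μ L a S β) (n : ℕ) : ∀ (W W' : Type) [NormedAddCommGroup W]
    [NormedSpace ℝ W] [NormedAddCommGroup W'] [NormedSpace ℝ W'] (B : Ω → W' →L[ℝ] W) (G : Y → W'),
    PK μ β B → SB G → tsupport G ⊆ S → ContDiff ℝ n (PI μ L a B G) ∧
      ∃ C : ℝ, ∀ x, ‖iteratedFDeriv ℝ n (PI μ L a B G) x‖ ≤ C := by
  induction n with
  | zero =>
    intro W W' _ _ _ _ B G hB hG hS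
    refine ⟨contDiff_zero.mpr (continuous_iff_continuousAt.mpr fun x =>
      (pi_deriv h hB hG hS x).continuousAt), ?_⟩
    simpa only [norm_iteratedFDeriv_zero] using pi_bdd h hB hG hS
  | succ n ih =>
    intro W W' _ _ _ _ B G hB hG hS
    have e : fderiv ℝ (PI μ L a B G) = PI μ L a (dK L B) (fderiv ℝ G) :=
      funext fun x => (pi_deriv h hB hG hS x).fderiv
    obtain ⟨h1, h2⟩ := ih _ _ _ _ (hB.dK h) hG.fderiv ((tsupport_fderiv_subset ℝ).trans hS)
    rw [← e] at h1 h2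
    refine ⟨?_, by simpa only [norm_iteratedFDeriv_fderiv] using h2⟩
    rw [Nat.cast_succ, contDiff_succ_iff_fderiv]
    exact ⟨fun x => (pi_deriv h hB hG hS x).differentiableAt, by simp, h1⟩

theorem pi_sb {W W' : Type} [NormedAddCommGroup W] [NormedSpace ℝ W] [NormedAddCommGroup W']
    [NormedSpace ℝ W'] (h : PH μ L a S β) {B : Ω → W' →L[ℝ] W} (hB : PK μ β B) {G : Y → W'}
    (hG : SB G) (hS : tsupport G ⊆ S) : SB (PI μ L a B G) :=
  ⟨contDiff_infty.mpr fun n => (pi_ind h n _ _ B G hB hG hS).1,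
    fun n => (pi_ind h n _ _ B G hB hG hS).2⟩

end Vale.Agent.P107.MX1
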