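import Vale.Agent.P107.Bas2

/-! P107 MX1: smooth functions bounded with all derivatives, and the slab regularity class. -/

namespace Vale.Agent.P107.MX1

open MeasureTheory Set Filter Topology
open scoped ContDiff RealInnerProductSpace ENNReal

variable {X Y W W' : Type} [NormedAddCommGroup X] [NormedSpace ℝ X] [NormedAddCommGroup Y]
  [NormedSpace ℝ Y] [NormedAddCommGroup W] [NormedSpace ℝ W] [NormedAddCommGroup W']
  [NormedSpace ℝ W']

/-- Smooth and bounded with all derivatives. -/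
def SB (F : X → W) : Prop :=
  ContDiff ℝ ∞ F ∧ ∀ n : ℕ, ∃ C : ℝ, ∀ x, ‖iteratedFDeriv ℝ n F x‖ ≤ C

theorem SB.fderiv {F : X → W} (h : SB F) : SB (fderiv ℝ F) :=
  ⟨h.1.fderiv_right (m := ∞) le_rfl, fun n => by
    simpa only [norm_iteratedFDeriv_fderiv] using h.2 (n + 1)⟩

theorem SB.bdd {F : X → W} (h : SB F) : ∃ C : ℝ, 0 ≤ C ∧ ∀ x, ‖F x‖ ≤ C := by
  obtain ⟨C, hC⟩ := h.2 0
  simp only [norm_iteratedFDeriv_zero] at hC
  exact ⟨C, (norm_nonneg _).trans (hC 0), hC⟩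

theorem SB.diff {F : X → W} (h : SB F) : Differentiable ℝ F := h.1.differentiable (by simp)

theorem SB.clm {F : X → W} (h : SB F) (T : W →L[ℝ] W') : SB fun x => T (F x) := by
  refine ⟨T.contDiff.comp h.1, fun n => ?_⟩
  obtain ⟨C, hC⟩ := h.2 n
  exact ⟨‖T‖ * C, fun x => (T.norm_iteratedFDeriv_comp_left h.1.contDiffAt
    (by exact_mod_cast le_top)).trans (mul_le_mul_of_nonneg_left (hC x) (norm_nonneg _))⟩

theorem SB.comp {F : X → W} (h : SB F) (T : Y →L[ℝ] X) : SB fun y => F (T y) := by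
  refine ⟨h.1.comp T.contDiff, fun n => ?_⟩
  obtain ⟨C, hC⟩ := h.2 n
  refine ⟨C * ∏ _i : Fin n, ‖T‖, fun y => ?_⟩
  rw [show (fun y => F (T y)) = F ∘ T from rfl,
    T.iteratedFDeriv_comp_right h.1 y (by exact_mod_cast le_top)]
  exact (ContinuousMultilinearMap.norm_compContinuousLinearMap_le _ _).trans
    (mul_le_mul_of_nonneg_right (hC _) (Finset.prod_nonneg fun _ _ => norm_nonneg _))

theorem SB.lip {F : X → W} (h : SB F) : ∃ C : ℝ, 0 ≤ C ∧ ∀ x y, ‖F x - F y‖ ≤ C * ‖x - y‖ := by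
  obtain ⟨C, hC0, hC⟩ := h.fderiv.bdd
  exact ⟨C, hC0, fun x y => convex_univ.norm_image_sub_le_of_norm_fderiv_le
    (fun z _ => h.diff z) (fun z _ => hC z) (mem_univ y) (mem_univ x)⟩

theorem SB.sec {F : X → W} (h : SB F) :
    ∃ C : ℝ, 0 ≤ C ∧ ∀ x k, ‖F (x + k) - (2 : ℝ) • F x + F (x - k)‖ ≤ C * ‖k‖ ^ 2 := by
  obtain ⟨C, hC0, hC⟩ := h.fderiv.lip
  refine ⟨C, hC0, fun x k => ?_⟩
  have hd : ∀ z, HasFDerivAt (fun z => F (z + k) - F z)
      (_root_.fderiv ℝ F (z + k) - _root_.fderiv ℝ F z) z := fun z =>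
    ((hasFDerivAt_comp_add_right k).mpr (h.diff (z + k)).hasFDerivAt).sub (h.diff z).hasFDerivAt
  have h1 := convex_univ.norm_image_sub_le_of_norm_hasFDerivWithin_le (C := C * ‖k‖)
    (fun z _ => (hd z).hasFDerivWithinAt) (fun z _ => by simpa using hC (z + k) z)
    (mem_univ (x - k)) (mem_univ x)
  rw [sub_add_cancel, sub_sub_cancel] at h1
  rw [show F (x + k) - (2 : ℝ) • F x + F (x - k) = F (x + k) - F x - (F x - F (x - k)) by module]
  exact h1.trans (le_of_eq (by ring))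

/-- The slab regularity class for general values. -/
def RW (K : ℝ × V3 → W) (T : ℝ) : Prop :=
  ∃ M : ℝ, 0 ≤ M ∧ (∀ p ∈ slab T, ‖K p‖ ≤ M) ∧
    (∀ p ∈ slab T, ∀ p' ∈ slab T, ‖K p - K p'‖ ≤ M * ‖p - p'‖) ∧
    ∀ t ∈ Icc 0 T, ∀ x h : V3, ‖K (t, x + h) - (2 : ℝ) • K (t, x) + K (t, x - h)‖ ≤ M * ‖h‖ ^ 2

theorem RW.reg {K : Fld} {T : ℝ} (h : RW K T) : ∃ M, Reg K T M := by
  obtain ⟨M, -, h1, h2, h3⟩ := h
  exact ⟨M, h1, h2, h3⟩

theorem reg_rw {K : Fld} {T M : ℝ} (h : Reg K T M) : RW K T :=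
  ⟨|M|, abs_nonneg M, fun p hp => (h.bdd p hp).trans (le_abs_self M),
    fun p hp p' hp' => (h.lip p hp p' hp').trans
      (mul_le_mul_of_nonneg_right (le_abs_self M) (norm_nonneg _)),
    fun t ht x k => (h.sec t ht x k).trans
      (mul_le_mul_of_nonneg_right (le_abs_self M) (sq_nonneg _))⟩

theorem SB.rw {K : ℝ × V3 → W} (h : SB K) (T : ℝ) : RW K T := by
  obtain ⟨a, ha, h1⟩ := h.bdd
  obtain ⟨b, hb, h2⟩ := h.lip
  obtain ⟨c, hc, h3⟩ := h.sec
  refine ⟨a + b + c, by positivity, fun p _ => by linarith [h1 p], fun p _ p' _ => ?_,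
    fun t _ x k => ?_⟩
  · exact (h2 p p').trans (mul_le_mul_of_nonneg_right (by linarith) (norm_nonneg _))
  · have := h3 (t, x) (0, k)
    simp only [Prod.mk_add_mk, Prod.mk_sub_mk, add_zero, sub_zero, Prod.norm_mk, norm_zero,
      norm_nonneg, max_eq_right] at this
    exact this.trans (mul_le_mul_of_nonneg_right (by linarith) (sq_nonneg _))

theorem RW.add {K K' : ℝ × V3 → W} {T : ℝ} (h : RW K T) (h' : RW K' T) :
    RW (fun p => K p + K' p) T := by
  obtain ⟨a, ha, h1, h2, h3⟩ := h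
  obtain ⟨b, hb, g1, g2, g3⟩ := h'
  refine ⟨a + b, by positivity, fun p hp => norm_add_le_of_le (h1 p hp) (g1 p hp),
    fun p hp p' hp' => ?_, fun t ht x k => ?_⟩
  · rw [add_sub_add_comm, add_mul]
    exact norm_add_le_of_le (h2 p hp p' hp') (g2 p hp p' hp')
  · rw [add_mul]
    refine le_trans (le_of_eq (congrArg _ ?_)) (norm_add_le_of_le (h3 t ht x k) (g3 t ht x k))
    module

theorem RW.clm {K : ℝ × V3 → W} {T : ℝ} (h : RW K T) (L : W →L[ℝ] W') :
    RW (fun p => L (K p)) T := by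
  obtain ⟨a, ha, h1, h2, h3⟩ := h
  refine ⟨‖L‖ * a, by positivity, fun p hp => L.le_of_opNorm_le_of_le le_rfl (h1 p hp),
    fun p hp p' hp' => ?_, fun t ht x k => ?_⟩
  · rw [← map_sub, mul_assoc]
    exact L.le_of_opNorm_le_of_le le_rfl (h2 p hp p' hp')
  · rw [← map_smul, ← map_sub, ← map_add, mul_assoc]
    exact L.le_of_opNorm_le_of_le le_rfl (h3 t ht x k)

theorem RW.sub {K K' : ℝ × V3 → W} {T : ℝ} (h : RW K T) (h' : RW K' T) :
    RW (fun p => K p - K' p) T := by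
  simpa [sub_eq_add_neg] using h.add (h'.clm (-ContinuousLinearMap.id ℝ W))

theorem RW.prod {K : ℝ × V3 → W} {K' : ℝ × V3 → W'} {T : ℝ} (h : RW K T) (h' : RW K' T) :
    RW (fun p => (K p, K' p)) T := by
  simpa using (h.clm (ContinuousLinearMap.inl ℝ W W')).add (h'.clm (ContinuousLinearMap.inr ℝ W W'))

theorem RW.tmul {K : ℝ × V3 → W} {T : ℝ} (hT : 0 ≤ T) (h : RW K T) :
    RW (fun p => p.1 • K p) T := by
  obtain ⟨a, ha, h1, h2, h3⟩ := h
  have ht : ∀ t ∈ Icc 0 T, ‖t‖ ≤ T := fun t ht => by rw [Real.norm_of_nonneg ht.1]; exact ht.2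
  refine ⟨T * a + a, by positivity, fun p hp => ?_, fun p hp p' hp' => ?_, fun t htt x k => ?_⟩
  · rw [norm_smul]
    have := mul_le_mul (ht _ hp.1) (h1 p hp) (norm_nonneg _) hT
    linarith
  · rw [show p.1 • K p - p'.1 • K p' = p.1 • (K p - K p') + (p - p').1 • K p' by
      rw [Prod.fst_sub]; module]
    refine (norm_add_le _ _).trans ?_
    rw [norm_smul, norm_smul]
    have e1 := mul_le_mul (ht _ hp.1) (h2 p hp p' hp') (norm_nonneg _) hT
    have e2 := mul_le_mul (norm_fst_le (p - p')) (h1 p' hp') (norm_nonneg _) (norm_nonneg _)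
    linarith
  · rw [show t • K (t, x + k) - (2 : ℝ) • t • K (t, x) + t • K (t, x - k) =
      t • (K (t, x + k) - (2 : ℝ) • K (t, x) + K (t, x - k)) by module, norm_smul]
    have e1 := mul_le_mul (ht _ htt) (h3 t htt x k) (norm_nonneg _) hT
    have e2 : 0 ≤ a * ‖k‖ ^ 2 := by positivity
    linarith

end Vale.Agent.P107.MX1
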