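import Vale.Agent.P107.MX1.Kir

/-! P107 MX1: vector calculus and the vacuum Maxwell solution. -/

namespace Vale.Agent.P107.MX1

open MeasureTheory Set Filter Topology Metric
open scoped ContDiff RealInnerProductSpace ENNReal

noncomputable def kEv (i j : Fin 3) : (V3 →L[ℝ] V3) →L[ℝ] ℝ :=
  (EuclideanSpace.proj j : V3 →L[ℝ] ℝ).comp (ContinuousLinearMap.apply ℝ V3 (eb i))

noncomputable def kCu : (V3 →L[ℝ] V3) →L[ℝ] V3 :=
  (kEv 1 2 - kEv 2 1).smulRight (eb 0) + (kEv 2 0 - kEv 0 2).smulRight (eb 1) +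
    (kEv 0 1 - kEv 1 0).smulRight (eb 2)

noncomputable def kDv : (V3 →L[ℝ] V3) →L[ℝ] ℝ := kEv 0 0 + kEv 1 1 + kEv 2 2

theorem kCu_apply (D : V3 →L[ℝ] V3) : kCu D = (D (eb 1) 2 - D (eb 2) 1) • eb 0 +
    (D (eb 2) 0 - D (eb 0) 2) • eb 1 + (D (eb 0) 1 - D (eb 1) 0) • eb 2 := rfl

theorem kDv_apply (D : V3 →L[ℝ] V3) : kDv D = D (eb 0) 0 + D (eb 1) 1 + D (eb 2) 2 := rfl

theorem kCu_0 (D : V3 →L[ℝ] V3) : kCu D 0 = D (eb 1) 2 - D (eb 2) 1 := by simp [kCu_apply, eb]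
theorem kCu_1 (D : V3 →L[ℝ] V3) : kCu D 1 = D (eb 2) 0 - D (eb 0) 2 := by simp [kCu_apply, eb]
theorem kCu_2 (D : V3 →L[ℝ] V3) : kCu D 2 = D (eb 0) 1 - D (eb 1) 0 := by simp [kCu_apply, eb]

theorem kir_curl (F : V3 → V3) (x : V3) : curl F x = kCu (fderiv ℝ F x) := by
  ext i
  fin_cases i
  · exact (kCu_0 _).symm
  · exact (kCu_1 _).symm
  · exact (kCu_2 _).symm

theorem kir_div (F : V3 → V3) (x : V3) : div F x = kDv (fderiv ℝ F x) := rfl

theorem kir_vec {g : V3 → V3} (hg : SB g) (hd : ∀ x, div g x = 0) (x : V3) :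
    kDv (fderiv ℝ (fun y => kCu (fderiv ℝ g y)) x) = 0 ∧
      kCu (fderiv ℝ (fun y => kCu (fderiv ℝ g y)) x) = -kTr (fderiv ℝ (fderiv ℝ g) x) := by
  have hs := ((contDiff_infty.mp hg.1 2).contDiffAt (x := x)).isSymmSndFDerivAt (by simp)
  have e1 : fderiv ℝ (fun y => kCu (fderiv ℝ g y)) x = kCu.comp (fderiv ℝ (fderiv ℝ g) x) :=
    (kCu.hasFDerivAt.comp x (hg.fderiv.diff x).hasFDerivAt).fderiv
  have e2 : kDv.comp (fderiv ℝ (fderiv ℝ g) x) = 0 := by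
    rw [← (kDv.hasFDerivAt.comp x (hg.fderiv.diff x).hasFDerivAt).fderiv,
      show (kDv ∘ fderiv ℝ g) = fun _ => 0 from funext hd]
    simp
  rw [e1]
  have s01 := fun j => congrArg (fun v : V3 => v j) (hs.eq (eb 0) (eb 1))
  have s02 := fun j => congrArg (fun v : V3 => v j) (hs.eq (eb 0) (eb 2))
  have s12 := fun j => congrArg (fun v : V3 => v j) (hs.eq (eb 1) (eb 2))
  have d := fun i => (kDv_apply _).symm.trans (congrArg (fun T : V3 →L[ℝ] ℝ => T (eb i)) e2)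
  simp only [zero_apply, ContinuousLinearMap.coe_coe] at d
  generalize fderiv ℝ (fderiv ℝ g) x = S at *
  constructor
  · simp only [kDv_apply, ContinuousLinearMap.comp_apply, kCu_0, kCu_1, kCu_2]
    linarith [s01 2, s02 1, s12 0]
  · ext i
    fin_cases i
    · show kCu (kCu.comp S) 0 = -(S (eb 0) (eb 0) 0 + S (eb 1) (eb 1) 0 + S (eb 2) (eb 2) 0)
      simp only [ContinuousLinearMap.comp_apply, kCu_0, kCu_1, kCu_2]
      linarith [s01 1, s02 2, d 0]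
    · show kCu (kCu.comp S) 1 = -(S (eb 0) (eb 0) 1 + S (eb 1) (eb 1) 1 + S (eb 2) (eb 2) 1)
      simp only [ContinuousLinearMap.comp_apply, kCu_0, kCu_1, kCu_2]
      linarith [s01 0, s12 2, d 1]
    · show kCu (kCu.comp S) 2 = -(S (eb 0) (eb 0) 2 + S (eb 1) (eb 1) 2 + S (eb 2) (eb 2) 2)
      simp only [ContinuousLinearMap.comp_apply, kCu_0, kCu_1, kCu_2]
      linarith [s02 0, s12 1, d 2]

variable {σ : Measure V3} [IsProbabilityMeasure σ]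

/-- Spatial derivatives of `kv g + c • kw (curl h)`. -/
theorem kir_x (hσ : ∀ᵐ w ∂σ, ‖w‖ ≤ 1) {g h : V3 → V3} (hg : SB g) (hh : SB h)
    (dg : ∀ x, div g x = 0) (dh : ∀ x, div h x = 0) (c t : ℝ) (x : V3) :
    div (fun y => kv σ g (t, y) + c • kw σ (fun z => kCu (fderiv ℝ h z)) (t, y)) x = 0 ∧
    curl (fun y => kv σ g (t, y) + c • kw σ (fun z => kCu (fderiv ℝ h z)) (t, y)) x =
      kv σ (fun z => kCu (fderiv ℝ g z)) (t, x) -
        c • kw σ (fun z => kTr (fderiv ℝ (fderiv ℝ h) z)) (t, x) := by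
  have hc := hh.fderiv.clm kCu
  have e : fderiv ℝ (fun y => kv σ g (t, y) + c • kw σ (fun z => kCu (fderiv ℝ h z)) (t, y)) x = _ :=
    ((kv_x hσ hg t x).add ((kw_x hσ hc t x).const_smul c)).fderiv
  rw [kir_div, kir_curl, e, map_add, map_add, map_smul, map_smul, ← kv_clm hσ hg.fderiv,
    ← kv_clm hσ hg.fderiv, ← kw_clm hσ hc.fderiv, ← kw_clm hσ hc.fderiv]
  simp only [fun z => (kir_vec hh dh z).1, fun z => (kir_vec hh dh z).2, ← kir_div, dg]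
  constructor
  · simp [kv, kw, kM0, kM1]
  · simp only [kw, kM0, integral_neg, smul_neg, sub_eq_add_neg]

theorem mx1_kirchhoff {E1 B1 : V3 → V3} (hE : SB E1) (hB : SB B1) (dE : ∀ x, div E1 x = 0)
    (dB : ∀ x, div B1 x = 0) :
    ∃ H : Fld, (∀ T, 0 ≤ T → ∃ K0, Reg H T K0) ∧ (∀ x, H (0, x) = (E1 x, B1 x)) ∧
      ∀ T, 0 < T → MaxOn T (fun _ _ => 0) H := by
  obtain ⟨σ, _, hσ, hD⟩ := exists_sph
  have cE := hE.fderiv.clm kCu
  have cB := hB.fderiv.clm kCu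
  have tt : ∀ g : V3 → V3, SB g → ∀ t x, HasDerivAt (fun s => kv σ g (s, x))
      (kw σ (fun y => kTr (fderiv ℝ (fderiv ℝ g) y)) (t, x)) t := fun g hg t x =>
    kv_t hσ hg t x (hD _ (contDiff_infty.mp hg.fderiv.1 1) t x)
  refine ⟨fun p => (kv σ E1 p + (1 : ℝ) • kw σ (fun z => kCu (fderiv ℝ B1 z)) p,
    kv σ B1 p + (-1 : ℝ) • kw σ (fun z => kCu (fderiv ℝ E1 z)) p), fun T hT => ?_, fun x => ?_,
    fun T _ => ⟨?_, fun t _ x => ?_, fun t _ x => ?_, fun t _ x => ?_, fun t _ x => ?_⟩⟩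
  · simp only [one_smul, neg_smul, ← sub_eq_add_neg]
    exact (((kv_rw hσ hE hT).add (kw_rw hσ cB hT)).prod ((kv_rw hσ hB hT).sub (kw_rw hσ cE hT))).reg
  · simp only [kw_zero, kv_zero, smul_zero, add_zero]
  · exact (contDiff_infty.mp (((kv_cd hσ hE).add ((kw_cd hσ cB).const_smul _)).prodMk
      ((kv_cd hσ hB).add ((kw_cd hσ cE).const_smul _))) 1).contDiffOn
  · refine (((tt _ hE t x).add ((kw_t hσ cB t x).const_smul (1 : ℝ))).congr_deriv
      ?_).hasDerivWithinAt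
    rw [(kir_x hσ hB hE dB dE (-1) t x).2]
    simp [add_comm]
  · refine (((tt _ hB t x).add ((kw_t hσ cE t x).const_smul (-1 : ℝ))).congr_deriv
      ?_).hasDerivWithinAt
    rw [(kir_x hσ hE hB dE dB 1 t x).2]
    simp [sub_eq_add_neg]
  · rw [(kir_x hσ hE hB dE dB 1 t x).1]
    simp
  · exact (kir_x hσ hB hE dB dE (-1) t x).1

end Vale.Agent.P107.MX1
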